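import Vale.Agent.P329.H962.Rows

/-! Rows F5 (coverage transfer) and F6 (the base stage). -/

namespace Vale.Agent.P329.H650

open Vale.Agent.P329.H962
open H259 (pw pw_zero pw_succ pw_one pw_add pw_succ' pw_mul pw_length)

variable {α A B : Type} {p : ℕ}

theorem N_drop (f : List α → ZMod p) (X : List α) (i : ℕ) (hi : i < X.length) :
    N f (X.drop i) = N f (X.drop (i + 1)) + f (X.drop i) := by
  rw [List.drop_eq_getElem_cons hi]
  rfl

/-- on a window on which `f` and `g` agree, `N f - N g` is constant -/
theorem N_diff (f g : List α → ZMod p) (X : List α) (K : ℕ) (hK : K ≤ X.length)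
    (h : ∀ i < K, f (X.drop i) = g (X.drop i)) :
    ∀ d, d ≤ K → N f (X.drop (K - d)) - N g (X.drop (K - d)) =
      N f (X.drop K) - N g (X.drop K) := by
  intro d
  induction d with
  | zero => intro _; rw [Nat.sub_zero]
  | succ d ih =>
    intro hd
    have h1 : K - d = K - (d + 1) + 1 := by omega
    have h2 : K - (d + 1) < X.length := by omega
    rw [N_drop f X _ h2, N_drop g X _ h2, ← h1, h _ (by omega), ← ih (by omega)]
    ring

theorem iter_eq (X : List α) (K : ℕ) (hK : K ≤ X.length) (ρs : List (ZMod p)) :
    ∀ f g : List α → ZMod p, (∀ i < K, f (X.drop i) = g (X.drop i)) →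
    ∃ ρs' : List (ZMod p), ρs'.length = ρs.length ∧
      ∀ i < K, iter f ρs (X.drop i) = iter g ρs' (X.drop i) := by
  induction ρs with
  | nil => intro f g h; exact ⟨[], rfl, h⟩
  | cons ρ ρs ih =>
    intro f g h
    obtain ⟨ρs', hl, he⟩ := ih (rc f ρ) (rc g (ρ - (N f (X.drop K) - N g (X.drop K)))) (by
      intro i hi
      have h1 := N_diff f g X K hK h (K - i) (by omega)
      have h2 : K - (K - i) = i := by omega
      rw [h2] at h1
      unfold rc
      rw [h i hi]
      by_cases hc : N f (X.drop i) = ρ
      · rw [if_pos hc, if_pos]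
        rw [← h1, hc]; ring
      · rw [if_neg hc, if_neg]
        intro h3
        apply hc
        have h4 : N f (X.drop i) = N g (X.drop i) + (N f (X.drop K) - N g (X.drop K)) := by
          rw [← h1]; ring
        rw [h4, h3]; ring)
    refine ⟨(ρ - (N f (X.drop K) - N g (X.drop K))) :: ρs', by simp [hl], ?_⟩
    intro i hi
    exact he i hi

theorem near_drop (β : List α → B) (m : ℕ → B) (J i : ℕ) (X : List α)
    (h : Near β m (J + i) X) : Near β (sh^[i] m) J (X.drop i) := by
  have hs : ∀ i (m : ℕ → B), sh^[i] m = fun j => m (i + j) := by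
    intro i
    induction i with
    | zero => intro m; funext j; simp
    | succ i ih =>
      intro m
      rw [Function.iterate_succ_apply, ih]
      funext j
      show sh m (i + j) = m (i + 1 + j)
      unfold sh
      rw [show i + j + 1 = i + 1 + j by omega]
  constructor
  · rw [List.length_drop]; have := h.1; omega
  · intro j hj
    rw [List.drop_drop, hs]
    exact h.2 (i + j) (by omega)

theorem rowF5 : RowF5 := by
  intro α B p _ β w h M hM hJ hcov ρs
  obtain ⟨J0, hJ0⟩ := hJ
  have hsh : ∀ i, ∀ m ∈ M, sh^[i] m ∈ M := by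
    intro i
    induction i with
    | zero => intro m hm; exact hm
    | succ i ih => intro m hm; rw [Function.iterate_succ_apply]; exact ih _ (hM m hm)
  choose Jf hJf using hcov
  have hfin : {l : List (ZMod p) | l.length = ρs.length}.Finite := by
    have : NeZero p := ⟨(Fact.out : p.Prime).ne_zero⟩
    exact List.finite_length_eq (ZMod p) ρs.length
  refine ⟨hfin.toFinset.sup Jf + J0, ?_⟩
  intro m hm X hX
  set K := hfin.toFinset.sup Jf with hKd
  have hlen : K + J0 ≤ X.length := hX.1
  obtain ⟨ρs', hl, he⟩ := iter_eq X K (by omega) ρs h w (by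
    intro i hi
    apply hJ0 (sh^[i] m) (hsh i m hm)
    apply near_drop
    constructor
    · omega
    · intro j hj; exact hX.2 j (by omega))
  have hle : Jf ρs' ≤ K := by
    apply Finset.le_sup (f := Jf)
    simp only [Set.Finite.mem_toFinset, Set.mem_ofPred_eq]
    exact hl
  obtain ⟨i, hi, hne⟩ := hJf ρs' m hm X ⟨by omega, fun j hj => hX.2 j (by omega)⟩
  refine ⟨i, by omega, ?_⟩
  rw [he i (by omega)]
  exact hne

/-- a zero-one function which is nonzero in every window of length `J` -/
theorem visits [Fact p.Prime] (f : List α → ZMod p) (h01 : ∀ X, f X = 0 ∨ f X = 1) (J : ℕ)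
    (hJ : ∀ X : List α, J ≤ X.length → ∃ i < J, f (X.drop i) ≠ 0) :
    ∀ (k : ℕ) (X : List α), (k + 1) * J ≤ X.length →
      ∃ i < (k + 1) * J, f (X.drop i) ≠ 0 ∧ N f (X.drop i) = N f X - k := by
  classical
  have first : ∀ X : List α, J ≤ X.length → ∃ i < J, f (X.drop i) ≠ 0 ∧
      N f (X.drop i) = N f X := by
    intro X hX
    have hex := hJ X hX
    have hex' : ∃ i, i < J ∧ f (X.drop i) ≠ 0 := hex
    refine ⟨Nat.find hex', (Nat.find_spec hex').1, (Nat.find_spec hex').2, ?_⟩
    have hlt := (Nat.find_spec hex').1
    have hz : ∀ j, j < Nat.find hex' → f (X.drop j) = 0 := by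
      intro j hj
      by_contra hc
      exact Nat.find_min hex' hj ⟨by omega, hc⟩
    have : ∀ j, j ≤ Nat.find hex' → N f (X.drop j) = N f X := by
      intro j
      induction j with
      | zero => intro _; rw [List.drop_zero]
      | succ j ih =>
        intro hj
        rw [← ih (by omega), N_drop f X j (by omega), hz j (by omega), add_zero]
    exact this _ le_rfl
  intro k
  induction k with
  | zero =>
    intro X hX
    obtain ⟨i, hi, h1, h2⟩ := first X (by omega)
    exact ⟨i, by omega, h1, by simpa using h2⟩
  | succ k ih =>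
    intro X hX
    have hX' : (k + 1) * J + J ≤ X.length := by
      have : (k + 1 + 1) * J = (k + 1) * J + J := by ring
      omega
    obtain ⟨i, hi, h1, h2⟩ := first X (by
      have : 0 ≤ (k + 1) * J := Nat.zero_le _
      omega)
    have h3 : f (X.drop i) = 1 := by
      rcases h01 (X.drop i) with h | h
      · exact absurd h h1
      · exact h
    have h4 : N f (X.drop (i + 1)) = N f X - 1 := by
      have := N_drop f X i (by omega)
      rw [h2, h3] at this
      rw [this]; ring
    obtain ⟨i', hi', h5, h6⟩ := ih (X.drop (i + 1)) (by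
      rw [List.length_drop]; omega)
    rw [List.drop_drop] at h5 h6
    refine ⟨i + 1 + i', ?_, h5, ?_⟩
    · have : (k + 1 + 1) * J = (k + 1) * J + J := by ring
      omega
    · rw [h6, h4]; push_cast; ring

theorem rc01 [Fact p.Prime] (ρs : List (ZMod p)) : ∀ f : List α → ZMod p,
    (∀ X, f X = 0 ∨ f X = 1) →
    (∃ J, ∀ X : List α, J ≤ X.length → ∃ i < J, f (X.drop i) ≠ 0) →
    ∃ J, ∀ X : List α, J ≤ X.length → ∃ i < J, iter f ρs (X.drop i) ≠ 0 := by
  induction ρs with
  | nil => intro f _ h; exact h
  | cons ρ ρs ih =>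
    intro f h01 ⟨J, hJ⟩
    apply ih (rc f ρ)
    · intro X
      unfold rc
      split_ifs
      · exact h01 X
      · exact Or.inl rfl
    · have : NeZero p := ⟨(Fact.out : p.Prime).ne_zero⟩
      refine ⟨p * J, ?_⟩
      intro X hX
      have hval : (N f X - ρ).val < p := ZMod.val_lt _
      have hmul : ((N f X - ρ).val + 1) * J ≤ p * J := Nat.mul_le_mul_right J hval
      obtain ⟨i, hi, h1, h2⟩ := visits f h01 J hJ (N f X - ρ).val X (le_trans hmul hX)
      refine ⟨i, lt_of_lt_of_le hi hmul, ?_⟩
      unfold rc
      rw [if_pos]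
      · exact h1
      · rw [h2, ZMod.natCast_zmod_val]; ring

theorem w0_stg [Fact p.Prime] : Stg (w0 : List α → ZMod p) where
  nil := by unfold w0; rw [if_pos rfl]
  fs := by
    apply Set.Finite.subset (Set.toFinite {(w0 : List α → ZMod p), fun _ => 1})
    rintro _ ⟨X, rfl⟩
    by_cases hX : X = []
    · left
      funext Y
      show w0 (Y ++ X) = w0 Y
      rw [hX, List.append_nil]
    · right
      funext Y
      show w0 (Y ++ X) = 1
      unfold w0
      rw [if_neg]
      intro h
      exact hX (List.append_eq_nil_iff.1 h).2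
  ap := by
    intro v
    refine ⟨1, ?_⟩
    intro n hn X Y hU
    by_cases hv : v = []
    · subst hv
      have : ∀ n, pw ([] : List α) n = [] := by
        intro n
        induction n with
        | zero => rfl
        | succ n ih => rw [pw_succ, ih, List.append_nil]
      rw [this, this]
    · exfalso
      have hne : pw v n ≠ [] := by
        obtain ⟨m, rfl⟩ : ∃ m, n = m + 1 := ⟨n - 1, by omega⟩
        rw [pw_succ]
        intro h
        exact hv (List.append_eq_nil_iff.1 h).1
      have := hU (pw v n) List.suffix_rfl hne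
      unfold w0 at this
      rw [if_neg] at this
      · exact one_ne_zero this
      · intro h
        exact hne (List.append_eq_nil_iff.1 h).1
  rt := by
    intro c c' r _ _ hr
    unfold w0
    rw [if_neg, if_neg]
    · intro h; exact hr (List.append_eq_nil_iff.1 h).1
    · intro h; exact hr (List.append_eq_nil_iff.1 h).1
  ch := by
    intro c v j hc hj _ hi
    exfalso
    have h1 := hi 1 le_rfl (by omega)
    unfold w0 at h1 hc
    have hc' : c ≠ [] := by
      intro h
      exact hc (by rw [if_pos h])
    rw [if_neg] at h1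
    · exact one_ne_zero h1
    · intro h; exact hc' (List.append_eq_nil_iff.1 h).2

theorem rowF6 : RowF6 := by
  intro α p _
  refine ⟨w0_stg, ?_⟩
  intro ρs
  apply rc01 ρs
  · intro X
    unfold w0
    split_ifs
    · exact Or.inl rfl
    · exact Or.inr rfl
  · refine ⟨1, ?_⟩
    intro X hX
    refine ⟨0, Nat.one_pos, ?_⟩
    unfold w0
    rw [List.drop_zero, if_neg]
    · exact one_ne_zero
    · intro h
      rw [h] at hX
      simp at hX

end Vale.Agent.P329.H650
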